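import Vale.Agent.P088.R2.H551.V.Spec

/-!
# P088, two arbitrary pairs: a calculus for bounds of the derivatives on a set
-/

open MeasureTheory Set
open scoped ContDiff Matrix

noncomputable section

namespace Vale.Agent.P088.PJ.H696

open Vale.Agent.P088.LR Vale.Agent.P088.LR.U Vale.Agent.P088.LR.H158
open Vale.Agent.P088.HY (VV Bs Bn Un DB)

section General

variable {E E' F : Type*} [NormedAddCommGroup E] [NormedSpace ℝ E] [NormedAddCommGroup E']
  [NormedSpace ℝ E'] [NormedAddCommGroup F] [NormedSpace ℝ F] {N K : ℕ} {O : Set E}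

/-- Smooth, derivatives up to order `K` are bounded by `M` on `O`. -/
def Bd (O : Set E) (K : ℕ) (M : ℝ) (f : E → F) : Prop :=
  ContDiff ℝ ∞ f ∧ ∀ l ≤ K, ∀ z ∈ O, ‖iteratedFDeriv ℝ l f z‖ ≤ M

/-- All entries. -/
def BM (O : Set E) (K : ℕ) (M : ℝ) (P : E → Matrix (Fin N) (Fin N) ℂ) : Prop :=
  ∀ a b, Bd O K M fun z => P z a b

theorem Bd.le {a b : ℝ} {f : E → F} {K' : ℕ} {O' : Set E} (h : Bd O K a f) (hab : a ≤ b)
    (hK : K' ≤ K) (hO : O' ⊆ O) : Bd O' K' b f :=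
  ⟨h.1, fun l hl z hz => (h.2 l (hl.trans hK) z (hO hz)).trans hab⟩

theorem Bd.add {a b : ℝ} {f g : E → F} (h1 : Bd O K a f) (h2 : Bd O K b g) :
    Bd O K (a + b) (fun z => f z + g z) := by
  refine ⟨h1.1.add h2.1, fun l hl z hz => ?_⟩
  rw [fun_iteratedFDeriv_add_apply (h1.1.of_le (mod_cast le_top)).contDiffAt
    (h2.1.of_le (mod_cast le_top)).contDiffAt]
  exact (norm_add_le _ _).trans (add_le_add (h1.2 l hl z hz) (h2.2 l hl z hz))

theorem Bd.neg {a : ℝ} {f : E → F} (h1 : Bd O K a f) : Bd O K a (fun z => -f z) := by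
  refine ⟨h1.1.neg, fun l hl z hz => ?_⟩
  have e : iteratedFDeriv ℝ l (fun z => -f z) z = -iteratedFDeriv ℝ l f z :=
    iteratedFDeriv_neg_apply
  rw [e, norm_neg]
  exact h1.2 l hl z hz

theorem Bd.sub {a b : ℝ} {f g : E → F} (h1 : Bd O K a f) (h2 : Bd O K b g) :
    Bd O K (a + b) (fun z => f z - g z) := by
  simp only [sub_eq_add_neg]
  exact h1.add h2.neg

theorem Bd.sum {ι : Type*} (s : Finset ι) {f : ι → E → F} {a : ℝ}
    (h : ∀ i ∈ s, Bd O K a (f i)) : Bd O K (s.card * a) (fun z => ∑ i ∈ s, f i z) := by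
  refine ⟨ContDiff.sum fun i hi => (h i hi).1, fun l hl z hz => ?_⟩
  rw [iteratedFDeriv_fun_sum_apply (fun i hi => (((h i hi).1).of_le (mod_cast le_top)).contDiffAt)]
  refine (norm_sum_le _ _).trans ((Finset.sum_le_sum fun i hi => (h i hi).2 l hl z hz).trans ?_)
  rw [Finset.sum_const, nsmul_eq_mul]

theorem Bd.mul {a b : ℝ} {f g : E → ℂ} (h1 : Bd O K a f) (h2 : Bd O K b g) :
    Bd O K (2 ^ K * (a * b)) (fun z => f z * g z) := by
  refine ⟨h1.1.mul h2.1, fun l hl z hz => ?_⟩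
  have ha : 0 ≤ a := (norm_nonneg _).trans (h1.2 0 (Nat.zero_le _) z hz)
  have hb : 0 ≤ b := (norm_nonneg _).trans (h2.2 0 (Nat.zero_le _) z hz)
  refine (norm_iteratedFDeriv_mul_le h1.1 h2.1 z (n := l) (mod_cast le_top)).trans ?_
  have h3 : ∀ i ∈ Finset.range (l + 1), (l.choose i : ℝ) * ‖iteratedFDeriv ℝ i f z‖ *
      ‖iteratedFDeriv ℝ (l - i) g z‖ ≤ (l.choose i : ℝ) * (a * b) := by
    intro i hi
    rw [Finset.mem_range] at hi
    rw [mul_assoc]
    refine mul_le_mul_of_nonneg_left ?_ (Nat.cast_nonneg _)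
    exact mul_le_mul (h1.2 i (by omega) z hz) (h2.2 (l - i) (by omega) z hz) (norm_nonneg _) ha
  refine (Finset.sum_le_sum h3).trans ?_
  rw [← Finset.sum_mul]
  refine mul_le_mul_of_nonneg_right ?_ (mul_nonneg ha hb)
  have h4 : ∑ i ∈ Finset.range (l + 1), (l.choose i : ℝ) = 2 ^ l := by
    exact_mod_cast Nat.sum_range_choose l
  rw [h4]
  exact pow_le_pow_right₀ (by norm_num) hl

theorem Bd.comp {a : ℝ} {f : E → F} (h : Bd O K a f) (L : E' →L[ℝ] E) (hL : ‖L‖ ≤ 1) :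
    Bd (L ⁻¹' O) K a (fun z => f (L z)) := by
  refine ⟨h.1.comp L.contDiff, fun l hl z hz => ?_⟩
  have e : iteratedFDeriv ℝ l (fun z => f (L z)) z =
      (iteratedFDeriv ℝ l f (L z)).compContinuousLinearMap fun _ => L :=
    L.iteratedFDeriv_comp_right h.1 z (mod_cast le_top)
  rw [e]
  refine (ContinuousMultilinearMap.norm_compContinuousLinearMap_le _ _).trans ?_
  have h5 : ∏ _i : Fin l, ‖L‖ ≤ 1 := Finset.prod_le_one (fun _ _ => norm_nonneg _) fun _ _ => hL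
  calc _ ≤ ‖iteratedFDeriv ℝ l f (L z)‖ * 1 := mul_le_mul_of_nonneg_left h5 (norm_nonneg _)
    _ ≤ a := by rw [mul_one]; exact h.2 l hl _ hz

theorem Bd.fd {a : ℝ} {f : E → F} (h : Bd O (K + 1) a f) (v : E) (hv : ‖v‖ ≤ 1) :
    Bd O K a (fun z => fderiv ℝ f z v) := by
  have h1 : ContDiff ℝ ∞ (fderiv ℝ f) := h.1.fderiv_right (m := ∞) (mod_cast le_top)
  refine ⟨h1.clm_apply contDiff_const, fun l hl z hz => ?_⟩
  have e : iteratedFDeriv ℝ l (fun z => fderiv ℝ f z v) z =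
      (ContinuousLinearMap.apply ℝ F v).compContinuousMultilinearMap
        (iteratedFDeriv ℝ l (fderiv ℝ f) z) :=
    (ContinuousLinearMap.apply ℝ F v).iteratedFDeriv_comp_left h1.contDiffAt (mod_cast le_top)
  rw [e]
  refine (ContinuousLinearMap.norm_compContinuousMultilinearMap_le _ _).trans ?_
  rw [norm_iteratedFDeriv_fderiv]
  have h6 : ‖(ContinuousLinearMap.apply ℝ F v : (E →L[ℝ] F) →L[ℝ] F)‖ ≤ 1 := by
    refine ContinuousLinearMap.opNorm_le_bound _ zero_le_one fun T => ?_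
    rw [ContinuousLinearMap.apply_apply, one_mul]
    exact (T.le_opNorm v).trans (mul_le_of_le_one_right (norm_nonneg _) hv)
  calc _ ≤ 1 * ‖iteratedFDeriv ℝ (l + 1) f z‖ := mul_le_mul_of_nonneg_right h6 (norm_nonneg _)
    _ ≤ a := by rw [one_mul]; exact h.2 (l + 1) (by omega) z hz

theorem Bd.const (c : F) : Bd O K ‖c‖ (fun _ : E => c) := by
  refine ⟨contDiff_const, fun l _ z _ => ?_⟩
  rcases Nat.eq_zero_or_pos l with rfl | hl
  · rw [norm_iteratedFDeriv_zero]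
  · have e : iteratedFDeriv ℝ l (fun _ : E => c) z = 0 := by
      rw [iteratedFDeriv_const_of_ne (by omega)]
      rfl
    rw [e, norm_zero]
    exact norm_nonneg _

/-- a continuous linear map -/
theorem Bd.lin (L : E →L[ℝ] F) {R : ℝ} (hR : 1 ≤ R) (hO : ∀ z ∈ O, ‖z‖ ≤ R) :
    Bd O K (R * ‖L‖) (fun z => L z) := by
  refine ⟨L.contDiff, fun l _ z hz => ?_⟩
  rcases l with _ | _ | l
  · rw [norm_iteratedFDeriv_zero, mul_comm]
    exact (L.le_opNorm z).trans (mul_le_mul_of_nonneg_left (hO z hz) (norm_nonneg _))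
  · have h7 : ‖iteratedFDeriv ℝ (0 + 1) (fun z => L z) z‖ = ‖fderiv ℝ (fun z => L z) z‖ := by
      rw [zero_add]
      exact norm_iteratedFDeriv_one _
    rw [h7, L.fderiv]
    exact le_mul_of_one_le_left (norm_nonneg _) hR
  · have h8 : ‖iteratedFDeriv ℝ (l + 1 + 1) (fun z => L z) z‖ = 0 := by
      rw [← norm_iteratedFDeriv_fderiv]
      have : fderiv ℝ (fun z => L z) = fun _ => L := funext fun z => L.fderiv
      rw [this, iteratedFDeriv_const_of_ne (by omega)]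
      simp
    rw [h8]
    exact mul_nonneg (zero_le_one.trans hR) (norm_nonneg _)

theorem Bd.lip {a : ℝ} {f : E → F} (h : Bd O (K + 1) a f) (hO : Convex ℝ O) {x y : E}
    (hx : x ∈ O) (hy : y ∈ O) : ‖f x - f y‖ ≤ a * ‖x - y‖ :=
  hO.norm_image_sub_le_of_norm_fderiv_le (𝕜 := ℝ)
    (fun z _ => (h.1.differentiable (by decide)).differentiableAt)
    (fun z hz => by
      have := h.2 1 (by omega) z hz
      rwa [norm_iteratedFDeriv_one] at this) hy hx

theorem Bd.z {a : ℝ} {f : E → F} (h : Bd O K a f) {z : E} (hz : z ∈ O) : ‖f z‖ ≤ a := by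
  have := h.2 0 (Nat.zero_le _) z hz
  rwa [norm_iteratedFDeriv_zero] at this

/-! ## Matrices -/

theorem BM.le {a b : ℝ} {P : E → Matrix (Fin N) (Fin N) ℂ} {K' : ℕ} {O' : Set E}
    (h : BM O K a P) (hab : a ≤ b) (hK : K' ≤ K) (hO : O' ⊆ O) : BM O' K' b P :=
  fun i j => (h i j).le hab hK hO

theorem BM.add {a b : ℝ} {P Q : E → Matrix (Fin N) (Fin N) ℂ} (h1 : BM O K a P)
    (h2 : BM O K b Q) : BM O K (a + b) (fun z => P z + Q z) := fun i j => (h1 i j).add (h2 i j)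

theorem BM.sub {a b : ℝ} {P Q : E → Matrix (Fin N) (Fin N) ℂ} (h1 : BM O K a P)
    (h2 : BM O K b Q) : BM O K (a + b) (fun z => P z - Q z) := fun i j => (h1 i j).sub (h2 i j)

theorem BM.sum {ι : Type*} (s : Finset ι) {P : ι → E → Matrix (Fin N) (Fin N) ℂ} {a : ℝ}
    (h : ∀ i ∈ s, BM O K a (P i)) : BM O K (s.card * a) (fun z => ∑ i ∈ s, P i z) := by
  intro i j
  have := Bd.sum (O := O) (K := K) s (f := fun c z => P c z i j) (a := a) fun c hc => h c hc i j
  simpa only [Matrix.sum_apply] using this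

theorem BM.mul {a b : ℝ} {P Q : E → Matrix (Fin N) (Fin N) ℂ} (h1 : BM O K a P)
    (h2 : BM O K b Q) : BM O K (N * (2 ^ K * (a * b))) (fun z => P z * Q z) := by
  intro i j
  have := Bd.sum (O := O) (K := K) (Finset.univ : Finset (Fin N))
    (f := fun c z => P z i c * Q z c j) (a := 2 ^ K * (a * b)) fun c _ => (h1 i c).mul (h2 c j)
  simpa only [Matrix.mul_apply, Finset.card_univ, Fintype.card_fin] using this

theorem BM.smul {a b : ℝ} {f : E → ℂ} {P : E → Matrix (Fin N) (Fin N) ℂ} (h1 : Bd O K a f)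
    (h2 : BM O K b P) : BM O K (2 ^ K * (a * b)) (fun z => f z • P z) := fun i j => by
  simpa only [Matrix.smul_apply, smul_eq_mul] using h1.mul (h2 i j)

theorem BM.comp {a : ℝ} {P : E → Matrix (Fin N) (Fin N) ℂ} (h : BM O K a P) (L : E' →L[ℝ] E)
    (hL : ‖L‖ ≤ 1) : BM (L ⁻¹' O) K a (fun z => P (L z)) := fun i j => (h i j).comp L hL

theorem BM.const (C : Matrix (Fin N) (Fin N) ℂ) {c : ℝ} (h : ∀ i j, ‖C i j‖ ≤ c) :
    BM O K c (fun _ : E => C) := fun i j => (Bd.const (C i j)).le (h i j) le_rfl Subset.rfl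

theorem BM.one : BM O K 1 (fun _ : E => (1 : Matrix (Fin N) (Fin N) ℂ)) := BM.const _ fun i j => by
  rcases eq_or_ne i j with rfl | h
  · rw [Matrix.one_apply_eq, norm_one]
  · rw [Matrix.one_apply_ne h, norm_zero]
    exact zero_le_one

end General

end Vale.Agent.P088.PJ.H696
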