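import Vale.Agent.P088.R2.H696.V.Bd
import Vale.Agent.P088.H91.UInv

/-!
# P088, two arbitrary pairs: bounds of the coefficients of the reduced data
-/

open MeasureTheory Set
open scoped ContDiff Matrix

noncomputable section

namespace Vale.Agent.P088.PJ.H696

open Vale.Agent.P088.LR Vale.Agent.P088.LR.U Vale.Agent.P088.LR.H158
open Vale.Agent.P088.HY (VV Bs Bn Un DB)

variable {n N : ℕ}

theorem bd_cl {k m : ℕ} {a : ℝ} {f : V n → ℂ} (hf : ContDiff ℝ ∞ f) (h : Cl k a f)
    (hm : m ≤ k) : Bd univ m a f := ⟨hf, fun l hl z _ => h l (hl.trans hm) z⟩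

theorem bm_cl {k m : ℕ} {a : ℝ} {P : MC n N} (hP : SmC P) (h : ClC k a P)
    (hm : m ≤ k) : BM univ m a P := fun i j => bd_cl (hP i j) (h i j) hm

theorem bd_re {k m : ℕ} {a : ℝ} {f : V n → ℝ} (hf : ContDiff ℝ ∞ f) (h : Cl k a f)
    (hm : m ≤ k) : Bd univ m a (fun x => ((f x : ℝ) : ℂ)) := by
  refine ⟨Complex.ofRealCLM.contDiff.comp hf, fun l hl z _ => ?_⟩
  have e : iteratedFDeriv ℝ l (fun x => ((f x : ℝ) : ℂ)) z =
      Complex.ofRealCLM.compContinuousMultilinearMap (iteratedFDeriv ℝ l f z) :=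
    Complex.ofRealCLM.iteratedFDeriv_comp_left hf.contDiffAt (mod_cast le_top)
  rw [e]
  refine (ContinuousLinearMap.norm_compContinuousMultilinearMap_le _ _).trans ?_
  rw [Complex.ofRealCLM_norm, one_mul]
  exact h l (hl.trans hm) z

theorem bm_pdm {m : ℕ} {a : ℝ} {P : MC n N} {O : Set (V n)} (h : BM O (m + 1) a P) (i : Fin n) :
    BM O m a (pdm i P) := by
  intro c d
  refine (h c d).fd (Pi.single i 1) ?_
  refine (pi_norm_le_iff_of_nonneg zero_le_one).mpr fun j => ?_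
  rcases eq_or_ne j i with rfl | hj
  · rw [Pi.single_eq_same, norm_one]
  · rw [Pi.single_eq_of_ne hj, norm_zero]
    exact zero_le_one

theorem bm_sm {m : ℕ} {a : ℝ} {P : MC n N} {O : Set (V n)} (h : BM O m a P) : SmC P :=
  fun c d => (h c d).1

theorem pdm_subc {P : MC n N} (hP : SmC P) (C : Matrix (Fin N) (Fin N) ℂ) (i : Fin n) :
    pdm i P = pdm i (fun x => P x - C) := by
  funext x
  ext α β
  simp only [pdm, Matrix.of_apply, Matrix.sub_apply]
  have h1 := pd_sub (dfa (hP α β) x) (dfa (contDiff_const (c := C α β)) x) i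
  rw [pd_const, sub_zero] at h1
  exact h1.symm

/-- Bounds of the coefficients. -/
structure CB (m : ℕ) (C δ : ℝ) (s : MF n) (P : MC n N) (G : Fin n → MC n N) : Prop where
  hs : ∀ i j, Bd univ m C (fun x => (s x i j : ℂ))
  sl : ∀ i j, Bd univ m δ (fun x => ((s x i j - (1 : Matrix (Fin n) (Fin n) ℝ) i j : ℝ) : ℂ))
  T : ∀ i j, BM univ m C (TP s P i j)
  dT : ∀ l i j, BM univ m (C * δ) (pdm l (TP s P i j))
  hk : ∀ i, BM univ m (C * δ) (kp s G i)
  Pi : BM univ m C (fun x => (P x)⁻¹)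
  L : ∀ j, BM univ m (C * δ) (bL s P G j)
  R : ∀ j, BM univ m (C * δ) (bR s P G j)

theorem coef (n N m : ℕ) : ∃ C δ₀ : ℝ, 1 ≤ C ∧ 0 < δ₀ ∧ δ₀ ≤ 1 ∧ ∀ δ, 0 ≤ δ → δ ≤ δ₀ →
    ∀ k, m + 1 ≤ k → ∀ (Ω : Set (V n)) (s : MF n) (P : MC n N) (G : Fin n → MC n N),
    Dt k δ Ω s P G → CB m C δ s P G := by
  obtain ⟨Ci, εi, hCi, hεi, hinv⟩ := H91.inv n N m
  set a : ℝ := 2 ^ (m + 1) * 2 + 1 with ha
  set b : ℝ := n * (2 ^ m * 2) with hb
  set d : ℝ := Ci + 1 with hd
  set e : ℝ := N * (2 ^ m * (d * (n * a + b))) with he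
  have ha0 : 0 ≤ a := by positivity
  have hb0 : 0 ≤ b := by positivity
  have hd0 : 0 ≤ d := by positivity
  have he0 : 0 ≤ e := by positivity
  have h20 : (0 : ℝ) ≤ 2 ^ m * (2 * 2) := by positivity
  refine ⟨2 + 2 ^ m * (2 * 2) + a + b + d + e, min 1 εi, by linarith, lt_min one_pos hεi,
    min_le_left _ _, fun δ hδ0 hδ1 k hk Ω s P G D => ?_⟩
  have hδ : δ ≤ 1 := hδ1.trans (min_le_left _ _)
  set C : ℝ := 2 + 2 ^ m * (2 * 2) + a + b + d + e with hC
  have hsl : ∀ i j, Bd univ (m + 1) δ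
      (fun x => ((s x i j - (1 : Matrix (Fin n) (Fin n) ℝ) i j : ℝ) : ℂ)) := fun i j =>
    bd_re ((D.ss i j).sub contDiff_const) (D.cs i j) hk
  have hs : ∀ i j, Bd univ (m + 1) 2 (fun x => (s x i j : ℂ)) := by
    intro i j
    have h1 := (hsl i j).add (Bd.const (E := V n) (O := univ) (K := m + 1)
      (((1 : Matrix (Fin n) (Fin n) ℝ) i j : ℝ) : ℂ))
    have e1 : (fun x => ((s x i j - (1 : Matrix (Fin n) (Fin n) ℝ) i j : ℝ) : ℂ) +
        (((1 : Matrix (Fin n) (Fin n) ℝ) i j : ℝ) : ℂ)) = fun x => (s x i j : ℂ) := by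
      funext x
      push_cast
      ring
    rw [e1] at h1
    refine h1.le ?_ le_rfl Subset.rfl
    have h2 : ‖(((1 : Matrix (Fin n) (Fin n) ℝ) i j : ℝ) : ℂ)‖ ≤ 1 := by
      rcases eq_or_ne i j with rfl | hij
      · simp
      · simp [Matrix.one_apply_ne hij]
    linarith
  have hP1 : BM univ (m + 1) δ (fun x => P x - 1) :=
    bm_cl (fun a b => (D.sP a b).sub contDiff_const) D.cP hk
  have hP : BM univ (m + 1) 2 P := by
    have h1 := hP1.add (BM.one (E := V n) (O := univ) (K := m + 1))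
    simp only [sub_add_cancel] at h1
    exact h1.le (by linarith) le_rfl Subset.rfl
  have hG : ∀ i, BM univ (m + 1) δ (G i) := fun i => bm_cl (D.sG i) (D.cG i) hk
  have hT : ∀ i j, BM univ m (2 ^ m * (2 * 2)) (TP s P i j) := fun i j =>
    BM.smul ((hs i j).le le_rfl (Nat.le_succ m) Subset.rfl)
      (hP.le le_rfl (Nat.le_succ m) Subset.rfl)
  have hT1 : ∀ i j, BM univ (m + 1) (a * δ) (fun x => TP s P i j x -
      ((1 : Matrix (Fin n) (Fin n) ℝ) i j : ℂ) • (1 : Matrix (Fin N) (Fin N) ℂ)) := by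
    intro i j
    have h1 := (BM.smul (hsl i j) hP).add
      (BM.smul (Bd.const (E := V n) (O := univ) (K := m + 1)
        (((1 : Matrix (Fin n) (Fin n) ℝ) i j : ℝ) : ℂ)) hP1)
    have h2 : (((1 : Matrix (Fin n) (Fin n) ℝ) i j : ℝ) : ℂ) = 0 ∨
        (((1 : Matrix (Fin n) (Fin n) ℝ) i j : ℝ) : ℂ) = 1 := by
      rcases eq_or_ne i j with rfl | hij
      · simp
      · simp [Matrix.one_apply_ne hij]
    rcases h2 with h2 | h2
    · have e1 : (fun x => TP s P i j x -
          ((1 : Matrix (Fin n) (Fin n) ℝ) i j : ℂ) • (1 : Matrix (Fin N) (Fin N) ℂ)) =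
          fun x => ((s x i j - (1 : Matrix (Fin n) (Fin n) ℝ) i j : ℝ) : ℂ) • P x := by
        funext x
        rw [h2, zero_smul, sub_zero]
        push_cast
        rw [h2, sub_zero]
        rfl
      rw [e1]
      refine (BM.smul (hsl i j) hP).le ?_ le_rfl Subset.rfl
      rw [ha]
      nlinarith
    · have e1 : (fun x => TP s P i j x -
          ((1 : Matrix (Fin n) (Fin n) ℝ) i j : ℂ) • (1 : Matrix (Fin N) (Fin N) ℂ)) =
          fun x => ((s x i j - (1 : Matrix (Fin n) (Fin n) ℝ) i j : ℝ) : ℂ) • P x +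
            (P x - 1) := by
        funext x
        rw [h2, one_smul]
        push_cast
        rw [h2, sub_smul, one_smul]
        show (s x i j : ℂ) • P x - 1 = _
        abel
      rw [e1]
      refine ((BM.smul (hsl i j) hP).add hP1).le ?_ le_rfl Subset.rfl
      rw [ha]
      linarith
  have hTs : ∀ i j, SmC (TP s P i j) := fun i j => bm_sm (hT i j)
  have hdT : ∀ l i j, BM univ m (a * δ) (pdm l (TP s P i j)) := by
    intro l i j
    rw [pdm_subc (hTs i j) (((1 : Matrix (Fin n) (Fin n) ℝ) i j : ℂ) • 1) l]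
    exact bm_pdm (hT1 i j) l
  have hκ : ∀ i, BM univ m (b * δ) (kp s G i) := by
    intro i
    have h1 := BM.sum (O := univ) (K := m) (Finset.univ : Finset (Fin n))
      (P := fun j x => (s x i j : ℂ) • G j x) (a := 2 ^ m * (2 * δ)) fun j _ =>
        BM.smul ((hs i j).le le_rfl (Nat.le_succ m) Subset.rfl)
          ((hG j).le le_rfl (Nat.le_succ m) Subset.rfl)
    refine h1.le ?_ le_rfl Subset.rfl
    rw [Finset.card_univ, Fintype.card_fin, hb]
    exact le_of_eq (by ring)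
  have hPi : BM univ m d (fun x => (P x)⁻¹) := by
    obtain ⟨-, h2, h3⟩ := hinv P D.sP δ hδ0 (hδ1.trans (min_le_right _ _))
      (fun a b l hl x => D.cP a b l (hl.trans (by omega)) x)
    have h1 := (bm_cl (P := fun x => (P x)⁻¹ - 1) (fun a b => (h2 a b).sub contDiff_const)
      h3 le_rfl).add
      (BM.one (E := V n) (O := univ) (K := m))
    simp only [sub_add_cancel] at h1
    refine h1.le ?_ le_rfl Subset.rfl
    rw [hd]
    nlinarith
  have hS1 : ∀ j, BM univ m (n * (a * δ) + b * δ)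
      (fun x => ∑ i, pdm i (TP s P i j) x + kp s G j x) := by
    intro j
    have h1 := BM.sum (O := univ) (K := m) (Finset.univ : Finset (Fin n))
      (P := fun i x => pdm i (TP s P i j) x) (a := a * δ) fun i _ => hdT i i j
    rw [Finset.card_univ, Fintype.card_fin] at h1
    exact h1.add (hκ j)
  have hS2 : ∀ j, BM univ m (n * (a * δ) + b * δ)
      (fun x => ∑ i, pdm i (TP s P i j) x - kp s G j x) := by
    intro j
    have h1 := BM.sum (O := univ) (K := m) (Finset.univ : Finset (Fin n))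
      (P := fun i x => pdm i (TP s P i j) x) (a := a * δ) fun i _ => hdT i i j
    rw [Finset.card_univ, Fintype.card_fin] at h1
    exact h1.sub (hκ j)
  have hCe : e * δ ≤ C * δ := mul_le_mul_of_nonneg_right (by linarith) hδ0
  refine ⟨fun i j => (hs i j).le (by linarith) (Nat.le_succ m) Subset.rfl,
    fun i j => (hsl i j).le le_rfl (Nat.le_succ m) Subset.rfl,
    fun i j => (hT i j).le (by linarith) le_rfl Subset.rfl,
    fun l i j => (hdT l i j).le (mul_le_mul_of_nonneg_right (by linarith) hδ0) le_rfl Subset.rfl,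
    fun i => (hκ i).le (mul_le_mul_of_nonneg_right (by linarith) hδ0) le_rfl Subset.rfl,
    hPi.le (by linarith) le_rfl Subset.rfl, fun j => ?_, fun j => ?_⟩
  · refine (hPi.mul (hS1 j)).le (le_trans (le_of_eq ?_) hCe) le_rfl Subset.rfl
    rw [he]
    ring
  · refine ((hS2 j).mul hPi).le (le_trans (le_of_eq ?_) hCe) le_rfl Subset.rfl
    rw [he]
    ring

end Vale.Agent.P088.PJ.H696
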