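import Vale.Agent.P088.R2.H696.V.Co

/-!
# P088, two arbitrary pairs: row V-KLB, bounds of the right hand sides
-/

open MeasureTheory Set
open scoped ContDiff Matrix

noncomputable section

namespace Vale.Agent.P088.PJ.H696

open Vale.Agent.P088.LR Vale.Agent.P088.LR.U Vale.Agent.P088.LR.H158
open Vale.Agent.P088.HY (VV Bs Bn Un DB)

variable {n N : ℕ}

/-! ## Coordinates -/

theorem sq_nn (x : V n) : 0 ≤ HY.sq x := Finset.sum_nonneg fun _ _ => sq_nonneg _

theorem abs_le_sq (x : V n) (j : Fin n) : |x j| ≤ √(HY.sq x) := by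
  rw [← Real.sqrt_sq_eq_abs]
  exact Real.sqrt_le_sqrt (Finset.single_le_sum (f := fun j => x j ^ 2)
    (fun _ _ => sq_nonneg _) (Finset.mem_univ j))

theorem norm_le_sq (x : V n) : ‖x‖ ≤ √(HY.sq x) :=
  (pi_norm_le_iff_of_nonneg (Real.sqrt_nonneg _)).mpr fun j => by
    rw [Real.norm_eq_abs]
    exact abs_le_sq x j

/-- The closed ball of radius `3`. -/
def B3 (E : Type*) [NormedAddCommGroup E] : Set E := Metric.closedBall 0 3

theorem mem_B3 {E : Type*} [NormedAddCommGroup E] {x : E} : x ∈ B3 E ↔ ‖x‖ ≤ 3 := by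
  simp [B3]

theorem convex_B3 (E : Type*) [NormedAddCommGroup E] [NormedSpace ℝ E] : Convex ℝ (B3 E) :=
  convex_closedBall 0 3

theorem mem_B3_Bs {x : V n} (hx : x ∈ Bs n (7 / 4)) : x ∈ B3 (V n) := by
  rw [mem_B3]
  refine (norm_le_sq x).trans ?_
  have h1 : HY.sq x < (7 / 4) ^ 2 := hx
  rw [Real.sqrt_le_left (by norm_num)]
  linarith

/-- the coordinate difference `x_b - y_b` -/
def qL (b : Fin n) : VV n →L[ℝ] ℂ :=
  Complex.ofRealCLM.comp ((ContinuousLinearMap.proj b).comp (ContinuousLinearMap.fst ℝ (V n) (V n))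
    - (ContinuousLinearMap.proj b).comp (ContinuousLinearMap.snd ℝ (V n) (V n)))

theorem qL_apply (b : Fin n) (z : VV n) : qL b z = ((z.1 b - z.2 b : ℝ) : ℂ) := rfl

theorem qL_norm (b : Fin n) : ‖(qL b : VV n →L[ℝ] ℂ)‖ ≤ 2 := by
  refine ContinuousLinearMap.opNorm_le_bound _ (by norm_num) fun z => ?_
  rw [qL_apply, Complex.norm_real, Real.norm_eq_abs]
  have h1 : |z.1 b| ≤ ‖z‖ := (norm_le_pi_norm z.1 b).trans (norm_fst_le z)
  have h2 : |z.2 b| ≤ ‖z‖ := (norm_le_pi_norm z.2 b).trans (norm_snd_le z)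
  have h3 := abs_sub (z.1 b) (z.2 b)
  linarith

theorem bd_q {m : ℕ} (b : Fin n) :
    Bd (B3 (VV n)) m 6 (fun z => ((z.1 b - z.2 b : ℝ) : ℂ)) := by
  have h1 := Bd.lin (O := B3 (VV n)) (K := m) (qL b) (R := 3) (by norm_num) fun z hz =>
    mem_B3.mp hz
  refine h1.le ?_ le_rfl Subset.rfl
  have := qL_norm (n := n) b
  linarith

/-- functions of `x` -/
theorem bm_fst {m : ℕ} {a : ℝ} {P : MC n N} (h : BM univ m a P) :
    BM (B3 (VV n)) m a (fun z => P z.1) :=
  (BM.comp h (ContinuousLinearMap.fst ℝ (V n) (V n))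
    (ContinuousLinearMap.norm_fst_le _ _ _)).le
    le_rfl le_rfl fun _ _ => mem_univ _

theorem bm_snd {m : ℕ} {a : ℝ} {P : MC n N} (h : BM univ m a P) :
    BM (B3 (VV n)) m a (fun z => P z.2) :=
  (BM.comp h (ContinuousLinearMap.snd ℝ (V n) (V n))
    (ContinuousLinearMap.norm_snd_le _ _ _)).le
    le_rfl le_rfl fun _ _ => mem_univ _

theorem bm_fst' {m : ℕ} {a : ℝ} {P : MC n N} (h : BM (B3 (V n)) m a P) :
    BM (B3 (VV n)) m a (fun z => P z.1) :=
  (BM.comp h (ContinuousLinearMap.fst ℝ (V n) (V n))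
    (ContinuousLinearMap.norm_fst_le _ _ _)).le
    le_rfl le_rfl fun z hz => mem_B3.mpr ((norm_fst_le z).trans (mem_B3.mp hz))

theorem bm_snd' {m : ℕ} {a : ℝ} {P : MC n N} (h : BM (B3 (V n)) m a P) :
    BM (B3 (VV n)) m a (fun z => P z.2) :=
  (BM.comp h (ContinuousLinearMap.snd ℝ (V n) (V n))
    (ContinuousLinearMap.norm_snd_le _ _ _)).le
    le_rfl le_rfl fun z hz => mem_B3.mpr ((norm_snd_le z).trans (mem_B3.mp hz))

theorem bd_fst {m : ℕ} {a : ℝ} {f : V n → ℂ} (h : Bd univ m a f) :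
    Bd (B3 (VV n)) m a (fun z => f z.1) :=
  (Bd.comp h (ContinuousLinearMap.fst ℝ (V n) (V n))
    (ContinuousLinearMap.norm_fst_le _ _ _)).le
    le_rfl le_rfl fun _ _ => mem_univ _

theorem bd_snd {m : ℕ} {a : ℝ} {f : V n → ℂ} (h : Bd univ m a f) :
    Bd (B3 (VV n)) m a (fun z => f z.2) :=
  (Bd.comp h (ContinuousLinearMap.snd ℝ (V n) (V n))
    (ContinuousLinearMap.norm_snd_le _ _ _)).le
    le_rfl le_rfl fun _ _ => mem_univ _

/-! ## Taylor -/

theorem fd_eq (f : V n → ℂ) (y q : V n) :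
    fderiv ℝ f y q = ∑ l, ((q l : ℝ) : ℂ) * pd l f y := by
  conv_lhs => rw [vec_eq q, map_sum]
  refine Finset.sum_congr rfl fun l _ => ?_
  rw [map_smul, Complex.real_smul]
  rfl

theorem taylor {m : ℕ} {a : ℝ} {f : V n → ℂ} {O : Set (V n)} (h : Bd O (m + 2) a f)
    (hO : Convex ℝ O) {x y : V n} (hx : x ∈ O) (hy : y ∈ O) :
    ‖f x - f y - ∑ l, ((x l - y l : ℝ) : ℂ) * pd l f y‖ ≤ a * ‖x - y‖ ^ 2 := by
  have ha : 0 ≤ a := (norm_nonneg _).trans (h.2 0 (Nat.zero_le _) x hx)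
  have h1 : ContDiff ℝ ∞ (fderiv ℝ f) := h.1.fderiv_right (m := ∞) (mod_cast le_top)
  have h2 : ∀ z ∈ segment ℝ y x, ‖fderiv ℝ f z - fderiv ℝ f y‖ ≤ a * ‖x - y‖ := by
    intro z hz
    have hzO : z ∈ O := hO.segment_subset hy hx hz
    have h3 : ‖fderiv ℝ f z - fderiv ℝ f y‖ ≤ a * ‖z - y‖ :=
      hO.norm_image_sub_le_of_norm_fderiv_le (𝕜 := ℝ)
        (fun w _ => (h1.differentiable (by decide)).differentiableAt)
        (fun w hw => by
          have h4 := h.2 (1 + 1) (by omega) w hw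
          rw [← norm_iteratedFDeriv_fderiv, norm_iteratedFDeriv_one] at h4
          exact h4) hy hzO
    refine h3.trans (mul_le_mul_of_nonneg_left ?_ ha)
    obtain ⟨s, t, hs, ht, hst, rfl⟩ := hz
    have e : s • y + t • x - y = t • (x - y) := by
      have : s = 1 - t := by linarith
      rw [this, sub_smul, one_smul, smul_sub]
      abel
    rw [e, norm_smul, Real.norm_eq_abs, abs_of_nonneg ht]
    exact mul_le_of_le_one_left (norm_nonneg _) (by linarith)
  have h5 := (convex_segment (𝕜 := ℝ) y x).norm_image_sub_le_of_norm_fderiv_le' (𝕜 := ℝ)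
    (f := f) (φ := fderiv ℝ f y) (C := a * ‖x - y‖)
    (fun w _ => (h.1.differentiable (by decide)).differentiableAt) h2
    (left_mem_segment ℝ y x) (right_mem_segment ℝ y x)
  rw [fd_eq f y (x - y)] at h5
  refine h5.trans (le_of_eq (by ring))

end Vale.Agent.P088.PJ.H696
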