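import Vale.Agent.P088.R2.H696.V.Klb

/-!
# P088, two arbitrary pairs: row V-KLB, bounds of the right hand sides, second part
-/

open MeasureTheory Set
open scoped ContDiff Matrix

noncomputable section

namespace Vale.Agent.P088.PJ.H696

open Vale.Agent.P088.LR Vale.Agent.P088.LR.U Vale.Agent.P088.LR.H158
open Vale.Agent.P088.HY (VV Bs Bn Un DB)

variable {n N : ℕ}

/-! ## Bounds of matrices -/

/-- All entries are bounded by `c`. -/
def NM (c : ℝ) (P : Matrix (Fin N) (Fin N) ℂ) : Prop := ∀ i j, ‖P i j‖ ≤ c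

theorem NM.le {a b : ℝ} {P : Matrix (Fin N) (Fin N) ℂ} (h : NM a P) (hab : a ≤ b) : NM b P :=
  fun i j => (h i j).trans hab

theorem NM.add {a b : ℝ} {P Q : Matrix (Fin N) (Fin N) ℂ} (h1 : NM a P) (h2 : NM b Q) :
    NM (a + b) (P + Q) := fun i j => (norm_add_le _ _).trans (add_le_add (h1 i j) (h2 i j))

theorem NM.sum {ι : Type*} (s : Finset ι) {P : ι → Matrix (Fin N) (Fin N) ℂ} {a : ℝ}
    (h : ∀ i ∈ s, NM a (P i)) : NM (s.card * a) (∑ i ∈ s, P i) := by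
  intro i j
  rw [Matrix.sum_apply]
  refine (norm_sum_le _ _).trans ((Finset.sum_le_sum fun c hc => h c hc i j).trans ?_)
  rw [Finset.sum_const, nsmul_eq_mul]

theorem NM.mul {a b : ℝ} {P Q : Matrix (Fin N) (Fin N) ℂ} (h1 : NM a P) (h2 : NM b Q) :
    NM (N * (a * b)) (P * Q) := by
  intro i j
  rw [Matrix.mul_apply]
  refine (norm_sum_le _ _).trans ((Finset.sum_le_sum (g := fun _ => a * b) fun c _ => ?_).trans ?_)
  · rw [norm_mul]
    exact mul_le_mul (h1 i c) (h2 c j) (norm_nonneg _) ((norm_nonneg _).trans (h1 i c))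
  · rw [Finset.sum_const, nsmul_eq_mul, Finset.card_univ, Fintype.card_fin]

theorem NM.smul {a b : ℝ} {c : ℂ} {P : Matrix (Fin N) (Fin N) ℂ} (h1 : ‖c‖ ≤ a) (h2 : NM b P) :
    NM (a * b) (c • P) := by
  intro i j
  rw [Matrix.smul_apply, smul_eq_mul, norm_mul]
  exact mul_le_mul h1 (h2 i j) (norm_nonneg _) ((norm_nonneg _).trans h1)

theorem NM.nq {c : ℝ} {P : Matrix (Fin N) (Fin N) ℂ} (h : NM c P) : nq P ≤ (N : ℝ) ^ 2 * c ^ 2 := by
  unfold PJ.nq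
  refine (Finset.sum_le_sum fun a _ => Finset.sum_le_sum fun b _ =>
    (pow_le_pow_left₀ (norm_nonneg _) (h a b) 2)).trans (le_of_eq ?_)
  simp only [Finset.sum_const, Finset.card_univ, Fintype.card_fin, nsmul_eq_mul]
  ring

theorem nq_nn (P : Matrix (Fin N) (Fin N) ℂ) : 0 ≤ nq P :=
  Finset.sum_nonneg fun _ _ => Finset.sum_nonneg fun _ _ => sq_nonneg _

theorem NM.of_nq {P : Matrix (Fin N) (Fin N) ℂ} : NM (√(PJ.nq P)) P := by
  intro i j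
  refine Real.le_sqrt_of_sq_le ?_
  exact (Finset.single_le_sum (f := fun b => ‖P i b‖ ^ 2) (fun _ _ => sq_nonneg _)
    (Finset.mem_univ j)).trans (Finset.single_le_sum (f := fun a => ∑ b, ‖P a b‖ ^ 2)
      (fun _ _ => Finset.sum_nonneg fun _ _ => sq_nonneg _) (Finset.mem_univ i))

theorem BM.nm {E : Type*} [NormedAddCommGroup E] [NormedSpace ℝ E] {O : Set E} {m : ℕ} {a : ℝ}
    {P : E → Matrix (Fin N) (Fin N) ℂ} (h : BM O m a P) {z : E} (hz : z ∈ O) : NM a (P z) :=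
  fun i j => (h i j).z hz

/-! ## The first right hand side -/

/-- double sums -/
theorem BM.sum2 {E : Type*} [NormedAddCommGroup E] [NormedSpace ℝ E] {O : Set E} {m : ℕ} {a : ℝ}
    {P : Fin n → Fin n → E → Matrix (Fin N) (Fin N) ℂ} (h : ∀ i j, BM O m a (P i j)) :
    BM O m (n * (n * a)) (fun z => ∑ i, ∑ j, P i j z) := by
  have h1 := BM.sum (O := O) (K := m) (Finset.univ : Finset (Fin n))
    (P := fun i z => ∑ j, P i j z) (a := n * a) fun i _ => by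
      have h2 := BM.sum (O := O) (K := m) (Finset.univ : Finset (Fin n))
        (P := fun j z => P i j z) (a := a) fun j _ => h i j
      rwa [Finset.card_univ, Fintype.card_fin] at h2
  rwa [Finset.card_univ, Fintype.card_fin] at h1

theorem BM.sum1 {E : Type*} [NormedAddCommGroup E] [NormedSpace ℝ E] {O : Set E} {m : ℕ} {a : ℝ}
    {P : Fin n → E → Matrix (Fin N) (Fin N) ℂ} (h : ∀ i, BM O m a (P i)) :
    BM O m (n * a) (fun z => ∑ i, P i z) := by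
  have h1 := BM.sum (O := O) (K := m) (Finset.univ : Finset (Fin n)) (P := P) (a := a)
    fun i _ => h i
  rwa [Finset.card_univ, Fintype.card_fin] at h1

theorem NM.sum2 {a : ℝ} {P : Fin n → Fin n → Matrix (Fin N) (Fin N) ℂ}
    (h : ∀ i j, NM a (P i j)) : NM (n * (n * a)) (∑ i, ∑ j, P i j) := by
  have h1 := NM.sum (Finset.univ : Finset (Fin n)) (P := fun i => ∑ j, P i j) (a := n * a)
    fun i _ => by
      have h2 := NM.sum (Finset.univ : Finset (Fin n)) (P := fun j => P i j) (a := a)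
        fun j _ => h i j
      rwa [Finset.card_univ, Fintype.card_fin] at h2
  rwa [Finset.card_univ, Fintype.card_fin] at h1

theorem bd_sd {m : ℕ} {C : ℝ} {f : V n → ℝ} (h : Bd univ m C (fun x => (f x : ℂ))) :
    Bd (B3 (VV n)) m (C + C) (fun z => ((f z.1 - f z.2 : ℝ) : ℂ)) := by
  have h1 := (bd_fst h).sub (bd_snd h)
  have e : (fun z : VV n => ((f z.1 - f z.2 : ℝ) : ℂ)) =
      fun z => (f z.1 : ℂ) - (f z.2 : ℂ) := by
    funext z
    push_cast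
    rfl
  rw [e]
  exact h1

theorem f1_bm (n N m : ℕ) {C : ℝ} (hC : 1 ≤ C) : ∃ C1 : ℝ, 0 ≤ C1 ∧ ∀ δ, 0 ≤ δ → δ ≤ 1 →
    ∀ (s : MF n) (P : MC n N) (G : Fin n → MC n N), CB m C δ s P G →
    ∀ (k2 : Fin n → Fin n → MC n N) (J : ℝ), 0 ≤ J → (∀ i j, BM univ m J (k2 i j)) →
    BM (B3 (VV n)) m (C1 * J) (F1x s P G k2) := by
  refine ⟨n * (n * (2 ^ m * (C + C))) + n * (n * (2 ^ m * (6 * (N * (2 ^ m * C))))), by positivity,
    fun δ hδ0 hδ1 s P G B k2 J hJ hk => ?_⟩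
  have h1 : ∀ i j, BM (B3 (VV n)) m (2 ^ m * ((C + C) * J))
      (fun z => ((s z.1 i j - s z.2 i j : ℝ) : ℂ) • k2 i j z.2) := fun i j =>
    BM.smul (bd_sd (f := fun x => s x i j) (B.hs i j)) (bm_snd (hk i j))
  have h2 : ∀ j b, BM (B3 (VV n)) m (2 ^ m * (6 * (N * (2 ^ m * (C * J)))))
      (fun z => ((z.1 b - z.2 b : ℝ) : ℂ) • (bL s P G j z.1 * k2 j b z.2)) := fun j b =>
    BM.smul (bd_q b) (BM.mul (bm_fst ((B.L j).le (mul_le_of_le_one_right (by linarith) hδ1)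
      le_rfl Subset.rfl)) (bm_snd (hk j b)))
  exact ((BM.sum2 h1).add (BM.sum2 h2)).le (le_of_eq (by ring)) le_rfl Subset.rfl

/-! ## The second right hand side -/

theorem rv_bm (n N m : ℕ) {C : ℝ} (hC : 1 ≤ C) : ∃ C1 : ℝ, 0 ≤ C1 ∧
    ∀ (s : MF n) (β : Fin n → MC n N), (∀ i j, Bd univ m C (fun x => (s x i j : ℂ))) →
    (∀ i, BM univ m C (β i)) →
    ∀ (W : MC n N) (J : ℝ), 0 ≤ J → BM univ (m + 2) J W → BM univ m (C1 * J) (Rv s β W) := by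
  refine ⟨n * (n * (2 ^ m * C)) + n * (N * (2 ^ m * C)), by positivity,
    fun s β hs hβ W J hJ hW => ?_⟩
  have h1 : ∀ i j, BM univ m (2 ^ m * (C * J))
      (fun x => (s x i j : ℂ) • pdm i (pdm j W) x) := fun i j =>
    BM.smul (hs i j) (bm_pdm (bm_pdm (m := m + 1) hW j) i)
  have h2 : ∀ i, BM univ m (N * (2 ^ m * (J * C))) (fun x => pdm i W x * β i x) := fun i =>
    BM.mul (bm_pdm (hW.le le_rfl (by omega) Subset.rfl) i) (hβ i)
  exact ((BM.sum2 h1).add (BM.sum1 h2)).le (le_of_eq (by ring)) le_rfl Subset.rfl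

theorem rh_bm (n N m : ℕ) {C : ℝ} (hC : 1 ≤ C) : ∃ C1 : ℝ, 0 ≤ C1 ∧ ∀ δ, 0 ≤ δ → δ ≤ 1 →
    ∀ (s : MF n) (P : MC n N) (G : Fin n → MC n N), CB m C δ s P G →
    ∀ (k2 : Fin n → Fin n → MC n N) (J : ℝ), 0 ≤ J → (∀ i j, BM univ (m + 1) J (k2 i j)) →
    ∀ b, BM univ m (C1 * J) (rhb s P G k2 b) := by
  refine ⟨2 ^ m * (2 * (n * (n * (N * (2 ^ m * C))))) + n * (N * (2 ^ m * (n * C + C))),
    by positivity, fun δ hδ0 hδ1 s P G B k2 J hJ hk b => ?_⟩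
  have hle : C * δ ≤ C := mul_le_of_le_one_right (by linarith) hδ1
  have h1 : ∀ i j, BM univ m (N * (2 ^ m * (J * C)))
      (fun x => pdm i (k2 j b) x * TP s P i j x) := fun i j =>
    BM.mul (bm_pdm (hk j b) i) (B.T i j)
  have h2 : ∀ j, BM univ m (N * (2 ^ m * (J * (n * C + C))))
      (fun x => k2 j b x * (∑ i, pdm i (TP s P i j) x - kp s G j x)) := fun j =>
    BM.mul ((hk j b).le le_rfl (Nat.le_succ m) Subset.rfl)
      ((BM.sum1 fun i => (B.dT i i j).le hle le_rfl Subset.rfl).sub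
        ((B.hk j).le hle le_rfl Subset.rfl))
  have h3 : Bd (univ : Set (V n)) m 2 (fun _ => (2 : ℂ)) :=
    (Bd.const (E := V n) (O := univ) (K := m) (2 : ℂ)).le (by simp) le_rfl Subset.rfl
  exact ((BM.smul h3 (BM.sum2 h1)).add (BM.sum1 h2)).le (le_of_eq (by ring)) le_rfl Subset.rfl

/-- The product in the second term. -/
theorem gr_bm (n N m : ℕ) {C : ℝ} (hC : 1 ≤ C) : ∃ C1 : ℝ, 0 ≤ C1 ∧ ∀ δ, 0 ≤ δ → δ ≤ 1 →
    ∀ (s : MF n) (P : MC n N) (G : Fin n → MC n N), CB m C δ s P G →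
    ∀ Γ : Fin n → Fin n → MC n N, (∀ a b, BM univ m 2 (Γ a b)) →
    ∀ (k2 : Fin n → Fin n → MC n N) (J : ℝ), 0 ≤ J → (∀ i j, BM univ (m + 1) J (k2 i j)) →
    ∀ a b, BM univ m (C1 * J) (fun x => Γ a b x * rhb s P G k2 b x * (P x)⁻¹) := by
  obtain ⟨Cr, hCr, h⟩ := rh_bm n N m hC
  refine ⟨N * (2 ^ m * ((N * (2 ^ m * (2 * Cr))) * C)), by positivity,
    fun δ hδ0 hδ1 s P G B Γ hΓ k2 J hJ hk a b => ?_⟩
  exact (BM.mul (BM.mul (hΓ a b) (h δ hδ0 hδ1 s P G B k2 J hJ hk b)) B.Pi).le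
    (le_of_eq (by ring)) le_rfl Subset.rfl

theorem y_bm {m k : ℕ} (hk : m ≤ k) {δ : ℝ} (hδ : δ ≤ 1) {Y : MC n N} {a : Fin n} (hY : SmC Y)
    (h : ClC k δ (fun x => Y x - (x a : ℂ) • 1)) : BM (B3 (V n)) m 4 Y := by
  have hx : Bd (B3 (V n)) m 3 (fun x => ((x a : ℝ) : ℂ)) := by
    have h1 := Bd.lin (O := B3 (V n)) (K := m)
      (Complex.ofRealCLM.comp (ContinuousLinearMap.proj a : V n →L[ℝ] ℝ)) (R := 3) (by norm_num)
      fun z hz => mem_B3.mp hz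
    refine h1.le ?_ le_rfl Subset.rfl
    have h2 : ‖Complex.ofRealCLM.comp (ContinuousLinearMap.proj a : V n →L[ℝ] ℝ)‖ ≤ 1 := by
      refine ContinuousLinearMap.opNorm_le_bound _ zero_le_one fun z => ?_
      rw [one_mul]
      show ‖((z a : ℝ) : ℂ)‖ ≤ ‖z‖
      rw [Complex.norm_real]
      exact norm_le_pi_norm z a
    linarith
  intro c d
  have h3 : Bd (B3 (V n)) m δ (fun x => (Y x - (x a : ℂ) • (1 : Matrix (Fin N) (Fin N) ℂ)) c d) :=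
    (bd_cl ((hY c d).sub (hx.1.mul contDiff_const)) (h c d) hk).le le_rfl le_rfl
      (subset_univ (B3 (V n)))
  rcases eq_or_ne c d with rfl | hcd
  · have h4 := h3.add hx
    have e : (fun x => (Y x - (x a : ℂ) • (1 : Matrix (Fin N) (Fin N) ℂ)) c c +
        ((x a : ℝ) : ℂ)) = fun x => Y x c c := by
      funext x
      rw [Matrix.sub_apply, Matrix.smul_apply, Matrix.one_apply_eq, smul_eq_mul, mul_one,
        sub_add_cancel]
    rw [e] at h4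
    exact h4.le (by linarith) le_rfl Subset.rfl
  · have e : (fun x => (Y x - (x a : ℂ) • (1 : Matrix (Fin N) (Fin N) ℂ)) c d) =
        fun x => Y x c d := by
      funext x
      rw [Matrix.sub_apply, Matrix.smul_apply, Matrix.one_apply_ne hcd, smul_zero, sub_zero]
    rw [e] at h3
    exact h3.le (by linarith) le_rfl Subset.rfl

/-- the Taylor remainder as a matrix function of `(x, y)` -/
def Ty (Y : MC n N) (z : VV n) : Matrix (Fin N) (Fin N) ℂ :=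
  Y z.1 - Y z.2 - ∑ l, ((z.1 l - z.2 l : ℝ) : ℂ) • pdm l Y z.2

theorem ty_bm (n N m : ℕ) : ∃ C1 : ℝ, 0 ≤ C1 ∧ ∀ Y : MC n N, BM (B3 (V n)) (m + 1) 4 Y →
    BM (B3 (VV n)) m C1 (Ty Y) := by
  refine ⟨4 + 4 + n * (2 ^ m * (6 * 4)), by positivity, fun Y hY => ?_⟩
  have h0 := hY.le le_rfl (Nat.le_succ m) Subset.rfl
  have h1 : ∀ l, BM (B3 (VV n)) m (2 ^ m * (6 * 4))
      (fun z => ((z.1 l - z.2 l : ℝ) : ℂ) • pdm l Y z.2) := fun l =>
    BM.smul (bd_q l) (bm_snd' (bm_pdm hY l))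
  exact ((bm_fst' h0).sub (bm_snd' h0)).sub (BM.sum1 h1)

theorem ty_nm {Y : MC n N} {m : ℕ} (hY : BM (B3 (V n)) (m + 2) 4 Y) {z : VV n}
    (h1 : z.1 ∈ B3 (V n)) (h2 : z.2 ∈ B3 (V n)) : NM (4 * HY.sq (z.1 - z.2)) (Ty Y z) := by
  intro c d
  have h3 := taylor (hY c d) (convex_B3 _) h1 h2
  have e : Ty Y z c d = Y z.1 c d - Y z.2 c d -
      ∑ l, ((z.1 l - z.2 l : ℝ) : ℂ) * pd l (fun x => Y x c d) z.2 := by
    unfold Ty
    rw [Matrix.sub_apply, Matrix.sub_apply, Matrix.sum_apply]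
    rfl
  rw [e]
  refine h3.trans (mul_le_mul_of_nonneg_left ?_ (by norm_num))
  have h4 := norm_le_sq (z.1 - z.2)
  calc ‖z.1 - z.2‖ ^ 2 ≤ √(HY.sq (z.1 - z.2)) ^ 2 := pow_le_pow_left₀ (norm_nonneg _) h4 2
    _ = HY.sq (z.1 - z.2) := Real.sq_sqrt (sq_nn _)

theorem f2_eq (s : MF n) (P : MC n N) (G Y : Fin n → MC n N) (Γ : Fin n → Fin n → MC n N)
    (k2 : Fin n → Fin n → MC n N) : F2x s P G Y Γ k2 = fun z =>
    (1 / 2 : ℂ) • (∑ a, ∑ b, (((z.1 a - z.2 a : ℝ) : ℂ) * ((z.1 b - z.2 b : ℝ) : ℂ)) •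
      Rv s (bR s P G) (k2 a b) z.2)
    + ∑ a, ∑ b, Ty (Y a) z * (Γ a b z.2 * rhb s P G k2 b z.2 * (P z.2)⁻¹) := by
  funext z
  unfold F2x Ty
  simp only [Complex.ofReal_mul]

theorem f2_bm (n N m : ℕ) {C : ℝ} (hC : 1 ≤ C) : ∃ C1 : ℝ, 0 ≤ C1 ∧ ∀ δ, 0 ≤ δ → δ ≤ 1 →
    ∀ (s : MF n) (P : MC n N) (G : Fin n → MC n N), CB m C δ s P G →
    ∀ Y : Fin n → MC n N, (∀ a, BM (B3 (V n)) (m + 1) 4 (Y a)) →
    ∀ Γ : Fin n → Fin n → MC n N, (∀ a b, BM univ m 2 (Γ a b)) →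
    ∀ (k2 : Fin n → Fin n → MC n N) (J : ℝ), 0 ≤ J → (∀ i j, BM univ (m + 2) J (k2 i j)) →
    BM (B3 (VV n)) m (C1 * J) (F2x s P G Y Γ k2) := by
  obtain ⟨Cr, hCr, hr⟩ := rv_bm n N m hC
  obtain ⟨Cg, hCg, hg⟩ := gr_bm n N m hC
  obtain ⟨Ct, hCt, ht⟩ := ty_bm n N m
  refine ⟨2 ^ m * (1 * (n * (n * (2 ^ m * ((2 ^ m * (6 * 6)) * Cr))))) +
    n * (n * (N * (2 ^ m * (Ct * Cg)))), by positivity,
    fun δ hδ0 hδ1 s P G B Y hY Γ hΓ k2 J hJ hk => ?_⟩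
  have hle : C * δ ≤ C := mul_le_of_le_one_right (by linarith) hδ1
  rw [f2_eq]
  have h1 : ∀ a b, BM (B3 (VV n)) m (2 ^ m * ((2 ^ m * (6 * 6)) * (Cr * J)))
      (fun z => (((z.1 a - z.2 a : ℝ) : ℂ) * ((z.1 b - z.2 b : ℝ) : ℂ)) •
      Rv s (bR s P G) (k2 a b) z.2) := fun a b =>
    BM.smul ((bd_q a).mul (bd_q b)) (bm_snd (hr s (bR s P G) B.hs
      (fun i => (B.R i).le hle le_rfl Subset.rfl) (k2 a b) J hJ (hk a b)))
  have h2 : ∀ a b, BM (B3 (VV n)) m (N * (2 ^ m * (Ct * (Cg * J))))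
      (fun z => Ty (Y a) z * (Γ a b z.2 * rhb s P G k2 b z.2 * (P z.2)⁻¹)) := fun a b =>
    BM.mul (ht (Y a) (hY a)) (bm_snd (hg δ hδ0 hδ1 s P G B Γ hΓ k2 J hJ
      (fun i j => (hk i j).le le_rfl (by omega) Subset.rfl) a b))
  have h3 : Bd (B3 (VV n)) m 1 (fun _ => (1 / 2 : ℂ)) :=
    (Bd.const (E := VV n) (O := B3 (VV n)) (K := m) (1 / 2 : ℂ)).le (by norm_num) le_rfl
      Subset.rfl
  exact ((BM.smul h3 (BM.sum2 h1)).add (BM.sum2 h2)).le (le_of_eq (by ring)) le_rfl Subset.rfl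

end Vale.Agent.P088.PJ.H696
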