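import Vale.Agent.P088.R2.H696.V.KlbF

/-!
# P088, two arbitrary pairs: row V-KLB, bounds of the right hand sides, conclusion
-/

open MeasureTheory Set
open scoped ContDiff Matrix

noncomputable section

namespace Vale.Agent.P088.PJ

namespace H696

open Vale.Agent.P088.LR Vale.Agent.P088.LR.U Vale.Agent.P088.LR.H158
open Vale.Agent.P088.HY (VV Bs Bn Un DB)

variable {n N : ℕ}

theorem bl0_compl : IsOpen (bl0 n)ᶜ := by
  have : Continuous fun x : V n => HY.sq x := by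
    unfold HY.sq
    fun_prop
  exact (isClosed_le this continuous_const).isOpen_compl

theorem norm_bl0 {p : V n} (hp : p ∈ bl0 n) : ‖p‖ ≤ 1 / 2 := by
  refine (norm_le_sq p).trans ?_
  have h1 : HY.sq p ≤ 1 / 4 := hp
  rw [Real.sqrt_le_left (by norm_num)]
  linarith

/-- derivatives of a function vanishing off `bl0` -/
theorem pdm_off {W : MC n N} (h : ∀ x ∉ bl0 n, W x = 0) (i : Fin n) :
    ∀ x ∉ bl0 n, pdm i W x = 0 := by
  intro x hx
  have h1 := pdm_congr (Ω := (bl0 n)ᶜ) bl0_compl (P := W) (Q := fun _ => 0) (fun y hy => h y hy)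
    hx i
  rw [h1, pdm_const]

theorem k2_off {Ω : Set (V n)} (hΩ : Ω ⊆ bl0 n) {s : MF n} {k2 : Fin n → Fin n → MC n N}
    (hk : Te Ω s k2) (i j : Fin n) : ∀ x ∉ bl0 n, k2 i j x = 0 :=
  fun x hx => hk.z i j x fun h => hx (hΩ h)

theorem f1_off {Ω : Set (V n)} (hΩ : Ω ⊆ bl0 n) {s : MF n} {k2 : Fin n → Fin n → MC n N}
    (hk : Te Ω s k2) (P : MC n N) (G : Fin n → MC n N) {z : VV n} (hz : z.2 ∉ bl0 n) :
    F1x s P G k2 z = 0 := by
  unfold F1x
  simp only [k2_off hΩ hk _ _ z.2 hz, smul_zero, mul_zero, Finset.sum_const_zero, add_zero]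

theorem f2_off {Ω : Set (V n)} (hΩ : Ω ⊆ bl0 n) {s₁ s : MF n} {k2 : Fin n → Fin n → MC n N}
    (hk : Te Ω s₁ k2) (P : MC n N) (G Y : Fin n → MC n N) (Γ : Fin n → Fin n → MC n N) {z : VV n}
    (hz : z.2 ∉ bl0 n) : F2x s P G Y Γ k2 z = 0 := by
  have h1 : ∀ i a b, pdm i (k2 a b) z.2 = 0 := fun i a b => pdm_off (k2_off hΩ hk a b) i z.2 hz
  have h2 : ∀ i j a b, pdm i (pdm j (k2 a b)) z.2 = 0 := fun i j a b =>
    pdm_off (pdm_off (k2_off hΩ hk a b) j) i z.2 hz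
  unfold F2x Rv rhb
  simp only [h1, h2, k2_off hΩ hk _ _ z.2 hz, smul_zero, mul_zero, zero_mul,
    Finset.sum_const_zero, add_zero]

theorem f1_diag (s : MF n) (P : MC n N) (G : Fin n → MC n N) (k2 : Fin n → Fin n → MC n N)
    (y : V n) : F1x s P G k2 (y, y) = 0 := by
  unfold F1x
  simp only [sub_self, Complex.ofReal_zero, zero_smul, Finset.sum_const_zero, add_zero]

theorem f2_diag (s : MF n) (P : MC n N) (G Y : Fin n → MC n N) (Γ : Fin n → Fin n → MC n N)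
    (k2 : Fin n → Fin n → MC n N) (y : V n) : F2x s P G Y Γ k2 (y, y) = 0 := by
  unfold F2x
  simp only [sub_self, Complex.ofReal_zero, mul_zero, zero_smul, Finset.sum_const_zero,
    zero_mul, smul_zero, add_zero]

/-- the third claim -/
theorem f1_pt (n N : ℕ) {C : ℝ} (_hC : 1 ≤ C) : ∃ C1 : ℝ, 0 ≤ C1 ∧ ∀ δ, 0 ≤ δ →
    ∀ (m : ℕ) (s : MF n) (P : MC n N) (G : Fin n → MC n N), SmM s → CB (m + 1) C δ s P G →
    ∀ (k2 : Fin n → Fin n → MC n N) (z : VV n), nq (F1x s P G k2 z) ≤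
      C1 * δ ^ 2 * HY.sq (z.1 - z.2) * ∑ i, ∑ j, nq (k2 i j z.2) := by
  refine ⟨(N : ℝ) ^ 2 * (n * n + n * n * N * C) ^ 2, by positivity,
    fun δ hδ0 m s P G hs B k2 z => ?_⟩
  set r := √(HY.sq (z.1 - z.2)) with hr
  set S := ∑ i, ∑ j, nq (k2 i j z.2) with hS
  have hr0 : 0 ≤ r := Real.sqrt_nonneg _
  have hS0 : 0 ≤ S := Finset.sum_nonneg fun _ _ => Finset.sum_nonneg fun _ _ => nq_nn _
  have hk : ∀ i j, NM (√S) (k2 i j z.2) := by
    intro i j
    refine NM.of_nq.le (Real.sqrt_le_sqrt ?_)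
    exact (Finset.single_le_sum (f := fun j => nq (k2 i j z.2)) (fun _ _ => nq_nn _)
      (Finset.mem_univ j)).trans (Finset.single_le_sum (f := fun i => ∑ j, nq (k2 i j z.2))
        (fun _ _ => Finset.sum_nonneg fun _ _ => nq_nn _) (Finset.mem_univ i))
  have h1 : ∀ i j, NM (δ * r * √S) (((s z.1 i j - s z.2 i j : ℝ) : ℂ) • k2 i j z.2) := by
    intro i j
    refine NM.smul ?_ (hk i j)
    have h2 := ((B.sl i j).le le_rfl (Nat.le_refl (m + 1)) Subset.rfl).lip convex_univ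
      (mem_univ z.1) (mem_univ z.2)
    have e : ((s z.1 i j - s z.2 i j : ℝ) : ℂ) =
        ((s z.1 i j - (1 : Matrix (Fin n) (Fin n) ℝ) i j : ℝ) : ℂ) -
        ((s z.2 i j - (1 : Matrix (Fin n) (Fin n) ℝ) i j : ℝ) : ℂ) := by
      push_cast
      ring
    rw [e]
    exact h2.trans (mul_le_mul_of_nonneg_left (norm_le_sq _) hδ0)
  have h3 : ∀ j b, NM (r * (N * (C * δ * √S)))
      (((z.1 b - z.2 b : ℝ) : ℂ) • (bL s P G j z.1 * k2 j b z.2)) := by
    intro j b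
    refine NM.smul ?_ (NM.mul ((B.L j).nm (mem_univ z.1)) (hk j b))
    rw [Complex.norm_real, Real.norm_eq_abs]
    exact abs_le_sq (z.1 - z.2) b
  have h4 : NM ((n * n + n * n * N * C) * (δ * r * √S)) (F1x s P G k2 z) :=
    ((NM.sum2 h1).add (NM.sum2 h3)).le (le_of_eq (by ring))
  refine h4.nq.trans (le_of_eq ?_)
  rw [mul_pow, mul_pow, mul_pow, Real.sq_sqrt hS0, hr, Real.sq_sqrt (sq_nn _)]
  ring

/-- the fourth claim -/
theorem f2_pt (n N : ℕ) {C : ℝ} (hC : 1 ≤ C) : ∃ C1 : ℝ, 0 ≤ C1 ∧ ∀ δ, 0 ≤ δ → δ ≤ 1 →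
    ∀ (s : MF n) (P : MC n N) (G : Fin n → MC n N), CB 0 C δ s P G →
    ∀ Y : Fin n → MC n N, (∀ a, BM (B3 (V n)) 2 4 (Y a)) →
    ∀ Γ : Fin n → Fin n → MC n N, (∀ a b, BM univ 0 2 (Γ a b)) →
    ∀ (k2 : Fin n → Fin n → MC n N) (J : ℝ), 0 ≤ J → (∀ i j, BM univ 2 J (k2 i j)) →
    ∀ z ∈ Us n (7 / 4), nq (F2x s P G Y Γ k2 z) ≤ C1 * J ^ 2 * HY.sq (z.1 - z.2) ^ 2 := by
  obtain ⟨Cr, hCr, hrv⟩ := rv_bm n N 0 hC
  obtain ⟨Cg, hCg, hg⟩ := gr_bm n N 0 hC
  refine ⟨(N : ℝ) ^ 2 * (n * n * Cr + n * n * N * 4 * Cg) ^ 2, by positivity,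
    fun δ hδ0 hδ1 s P G B Y hY Γ hΓ k2 J hJ hk z hz => ?_⟩
  have hle : C * δ ≤ C := mul_le_of_le_one_right (by linarith) hδ1
  set r := √(HY.sq (z.1 - z.2)) with hr
  have hr0 : 0 ≤ r := Real.sqrt_nonneg _
  have hr2 : HY.sq (z.1 - z.2) = r * r := by rw [hr, Real.mul_self_sqrt (sq_nn _)]
  have hq : ∀ b, ‖((z.1 b - z.2 b : ℝ) : ℂ)‖ ≤ r := by
    intro b
    rw [Complex.norm_real, Real.norm_eq_abs]
    exact abs_le_sq (z.1 - z.2) b
  rw [f2_eq]
  have h1 : ∀ a b, NM (r * r * (Cr * J))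
      ((((z.1 a - z.2 a : ℝ) : ℂ) * ((z.1 b - z.2 b : ℝ) : ℂ)) •
      Rv s (bR s P G) (k2 a b) z.2) := by
    intro a b
    refine NM.smul ?_ ((hrv s (bR s P G) B.hs (fun i => (B.R i).le hle le_rfl Subset.rfl)
      (k2 a b) J hJ (hk a b)).nm (mem_univ z.2))
    rw [norm_mul]
    exact mul_le_mul (hq a) (hq b) (norm_nonneg _) hr0
  have h2 : ∀ a b, NM (N * (4 * (r * r) * (Cg * J)))
      (Ty (Y a) z * (Γ a b z.2 * rhb s P G k2 b z.2 * (P z.2)⁻¹)) := by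
    intro a b
    refine NM.mul ?_ ((hg δ hδ0 hδ1 s P G B Γ hΓ k2 J hJ
      (fun i j => (hk i j).le le_rfl (by omega) Subset.rfl) a b).nm (mem_univ z.2))
    rw [← hr2]
    exact ty_nm (m := 0) (hY a) (mem_B3_Bs hz.1) (mem_B3_Bs hz.2)
  have h3 : NM (1 * (n * (n * (r * r * (Cr * J))))) ((1 / 2 : ℂ) •
      (∑ a, ∑ b, (((z.1 a - z.2 a : ℝ) : ℂ) * ((z.1 b - z.2 b : ℝ) : ℂ)) •
      Rv s (bR s P G) (k2 a b) z.2)) := NM.smul (by norm_num) (NM.sum2 h1)
  have h4 := (h3.add (NM.sum2 h2)).le (b := (n * n * Cr + n * n * N * 4 * Cg) * (J * (r * r)))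
    (le_of_eq (by ring))
  refine h4.nq.trans (le_of_eq ?_)
  rw [hr2]
  ring

end H696

open Vale.Agent.P088.LR Vale.Agent.P088.LR.U Vale.Agent.P088.LR.H158 H696
open Vale.Agent.P088.HY (VV Bs Bn Un DB)

theorem rowKLB : RowKLB := by
  intro n N K
  obtain ⟨C, δ₀, hC, hδ₀, hδ₀1, hco⟩ := coef n N (K + 1)
  obtain ⟨C1, hC1, h1⟩ := f1_bm n N (K + 1) hC
  obtain ⟨C2, hC2, h2⟩ := f2_bm n N (K + 1) hC
  obtain ⟨C3, hC3, h3⟩ := f1_pt n N hC
  obtain ⟨C4, hC4, h4⟩ := f2_pt n N hC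
  refine ⟨K + 6, 4 * (C1 + C2) + C3 + C4 + 1, δ₀, by positivity, hδ₀,
    fun δ hδ0 hδ1 Ω s₁ s₂ P₁ P₂ G₁ G₂ Y D R Γ hΓs hΓ k2 hk2 J hJ hk => ?_⟩
  have hδ : δ ≤ 1 := hδ1.trans hδ₀1
  have B1 := hco δ hδ0 hδ1 (K + 6) (by omega) Ω s₁ P₁ G₁ R.d₁
  have B2 := hco δ hδ0 hδ1 (K + 6) (by omega) Ω s₂ P₂ G₂ R.d₂
  have bk : ∀ i j, BM univ (K + 3) J (k2 i j) := fun i j => bm_cl (hk2.sm i j) (hk i j) (by omega)
  have bΓ : ∀ a b, BM univ (K + 1) 2 (Γ a b) := by
    intro a b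
    have h5 : BM (univ : Set (V n)) (K + 1) 1
        (fun x => Γ a b x - if a = b then 1 else 0) := by
      refine bm_cl (fun c d => ?_) (hΓ a b) (by omega)
      exact (hΓs a b c d).sub contDiff_const
    have h6 : BM (univ : Set (V n)) (K + 1) 1
        (fun _ => (if a = b then 1 else 0 : Matrix (Fin N) (Fin N) ℂ)) := by
      refine BM.const _ fun i j => ?_
      split_ifs
      · rcases eq_or_ne i j with rfl | hij
        · simp
        · simp [Matrix.one_apply_ne hij]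
      · simp
    have h7 := h5.add h6
    simp only [sub_add_cancel] at h7
    exact h7.le (by norm_num) le_rfl Subset.rfl
  have bY : ∀ a, BM (B3 (V n)) (K + 5) 4 (Y a) := fun a => y_bm (by omega) hδ (R.sY a) (R.cY a)
  have g1 := h1 δ hδ0 hδ s₁ P₁ G₁ B1 k2 J hJ fun i j => (bk i j).le le_rfl (by omega) Subset.rfl
  have g2 := h2 δ hδ0 hδ s₂ P₂ G₂ B2 Y (fun a => (bY a).le le_rfl (by omega) Subset.rfl) Γ bΓ k2 J
    hJ bk
  refine ⟨fun a b => (g1 a b).1.contDiffOn, fun a b => (g2 a b).1.contDiffOn,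
    fun z hz => ⟨f1_off R.sub hk2 P₁ G₁ hz, f2_off R.sub hk2 P₂ G₂ Y Γ hz⟩, fun z _ => ?_,
    fun z hz => ?_, fun lam hlam a b l hl p hp z hz => ?_⟩
  · refine (h3 δ hδ0 K s₁ P₁ G₁ R.d₁.ss B1 k2 z).trans ?_
    have hS0 : 0 ≤ ∑ i, ∑ j, nq (k2 i j z.2) :=
      Finset.sum_nonneg fun _ _ => Finset.sum_nonneg fun _ _ => nq_nn _
    exact mul_le_mul_of_nonneg_right (mul_le_mul_of_nonneg_right
      (mul_le_mul_of_nonneg_right (by linarith) (sq_nonneg δ)) (sq_nn _)) hS0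
  · refine (h4 δ hδ0 hδ s₂ P₂ G₂ ?_ Y (fun a => (bY a).le le_rfl (by omega) Subset.rfl) Γ
      (fun a b => (bΓ a b).le le_rfl (by omega) Subset.rfl) k2 J hJ
      (fun i j => (bk i j).le le_rfl (by omega) Subset.rfl) z hz).trans ?_
    · exact ⟨fun i j => (B2.hs i j).le le_rfl (by omega) Subset.rfl,
        fun i j => (B2.sl i j).le le_rfl (by omega) Subset.rfl,
        fun i j => (B2.T i j).le le_rfl (by omega) Subset.rfl,
        fun l i j => (B2.dT l i j).le le_rfl (by omega) Subset.rfl,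
        fun i => (B2.hk i).le le_rfl (by omega) Subset.rfl,
        B2.Pi.le le_rfl (by omega) Subset.rfl, fun j => (B2.L j).le le_rfl (by omega) Subset.rfl,
        fun j => (B2.R j).le le_rfl (by omega) Subset.rfl⟩
    · exact mul_le_mul_of_nonneg_right (mul_le_mul_of_nonneg_right (by linarith) (sq_nonneg J))
        (sq_nonneg _)
  · have hF : Bd (B3 (VV n)) (K + 1) ((C1 + C2) * J)
        (fun z => F1x s₁ P₁ G₁ k2 z a b + F2x s₂ P₂ G₂ Y Γ k2 z a b) :=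
      ((g1 a b).add (g2 a b)).le (le_of_eq (by ring)) le_rfl Subset.rfl
    have hlam0 : 0 < lam := by linarith
    have h2l : 2 / lam ≤ 2 := by
      rw [div_le_iff₀ hlam0]
      linarith
    have hp2 := norm_bl0 hp
    have hpp : ‖((p, p) : VV n)‖ ≤ 1 / 2 := by
      rw [Prod.norm_def]
      exact max_le hp2 hp2
    rw [Metric.mem_ball, dist_eq_norm] at hz
    have hz3 : ‖z‖ ≤ 5 / 2 := by
      have h8 := norm_add_le (z - (p, p)) (p, p)
      rw [sub_add_cancel] at h8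
      linarith
    have hzB : z ∈ B3 (VV n) := mem_B3.mpr (by linarith)
    have hCJ : 0 ≤ (C1 + C2) * J := by positivity
    rcases Nat.eq_zero_or_pos l with rfl | hl0
    · rw [norm_iteratedFDeriv_zero, pow_zero, mul_one]
      have hyy : ((z.2, z.2) : VV n) ∈ B3 (VV n) := by
        rw [mem_B3, Prod.norm_def]
        exact max_le ((norm_snd_le z).trans (by linarith)) ((norm_snd_le z).trans (by linarith))
      have h9 := (hF.le le_rfl (by omega : 0 + 1 ≤ K + 1) Subset.rfl).lip (convex_B3 _) hzB hyy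
      simp only [f1_diag, f2_diag, Matrix.zero_apply, add_zero, sub_zero] at h9
      refine h9.trans ?_
      have h10 : ‖z - (z.2, z.2)‖ ≤ 4 / lam := by
        have e : z - (z.2, z.2) = ((z.1 - p) - (z.2 - p), 0) := by
          refine Prod.ext ?_ ?_
          · exact (sub_sub_sub_cancel_right z.1 z.2 p).symm
          · exact sub_self _
        rw [e, Prod.norm_def, norm_zero]
        refine max_le ?_ (by positivity)
        have h11 : ‖z.1 - p‖ ≤ ‖z - (p, p)‖ := norm_fst_le (z - (p, p))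
        have h12 : ‖z.2 - p‖ ≤ ‖z - (p, p)‖ := norm_snd_le (z - (p, p))
        have h13 := norm_sub_le (z.1 - p) (z.2 - p)
        have h14 : 4 / lam = 2 / lam + 2 / lam := by ring
        linarith
      have h15 : (0 : ℝ) ≤ (C3 + C4 + 1) * J / lam := by positivity
      calc (C1 + C2) * J * ‖z - (z.2, z.2)‖ ≤ (C1 + C2) * J * (4 / lam) :=
            mul_le_mul_of_nonneg_left h10 hCJ
        _ ≤ (C1 + C2) * J * (4 / lam) + (C3 + C4 + 1) * J / lam := by linarith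
        _ = (4 * (C1 + C2) + C3 + C4 + 1) * J / lam := by ring
    · refine (hF.2 l (by omega) z hzB).trans ?_
      have h16 : (1 : ℝ) ≤ lam ^ l / lam := by
        rw [le_div_iff₀ hlam0, one_mul]
        exact le_self_pow₀ hlam (by omega)
      calc (C1 + C2) * J ≤ (4 * (C1 + C2) + C3 + C4 + 1) * J :=
            mul_le_mul_of_nonneg_right (by linarith) hJ
        _ ≤ (4 * (C1 + C2) + C3 + C4 + 1) * J * (lam ^ l / lam) :=
            le_mul_of_one_le_right (by positivity) h16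
        _ = (4 * (C1 + C2) + C3 + C4 + 1) * J / lam * lam ^ l := by ring

end Vale.Agent.P088.PJ
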